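import Mathlib.FieldTheory.Finite.Basic
import Mathlib.Algebra.Ring.Subring.Basic
import Mathlib.Algebra.BigOperators.Ring.Finset
import Mathlib.Algebra.Ring.Pi
import Mathlib.Tactic.Ring
import Mathlib.Tactic.FieldSimp

/-!
Algebraic form of skew products over minimal systems are minimal: maximal `T`-stable ideals
of rings of `ZMod p`-valued functions.
-/

set_option autoImplicit false

namespace Vale.Agent.P329.H458

open Finset

variable {p : ℕ} {W : Type*}

/-- a maximal `T`-stable ideal `m` of the ring `A` of functions, in elementwise form -/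
structure Mx (T : W → W) (A : Subring (W → ZMod p)) (m : Set (W → ZMod p)) : Prop where
  sub : ∀ f ∈ m, f ∈ A
  zero : (0 : W → ZMod p) ∈ m
  add : ∀ f ∈ m, ∀ g ∈ m, f + g ∈ m
  mul : ∀ a ∈ A, ∀ f ∈ m, a * f ∈ m
  tau : ∀ f ∈ m, f ∘ T ∈ m
  one : (1 : W → ZMod p) ∉ m
  syn : ∀ f ∈ A, f ∉ m → ∃ J : ℕ, ∏ i ∈ range J, (1 - (f ∘ T^[i]) ^ (p - 1)) ∈ m

/-- `h` is a coboundary modulo `m` -/
def Cob (T : W → W) (A : Subring (W → ZMod p)) (m : Set (W → ZMod p)) (h : W → ZMod p) : Prop :=
  ∃ ψ ∈ A, h - (ψ - ψ ∘ T) ∈ m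

/-- the indicator of `X = s` -/
def ind (X : W → ZMod p) (s : ZMod p) : W → ZMod p := fun v => if X v = s then 1 else 0

namespace Mx

variable {T : W → W} {A : Subring (W → ZMod p)} {m : Set (W → ZMod p)}

theorem neg (h : Mx T A m) {f : W → ZMod p} (hf : f ∈ m) : -f ∈ m := by
  have := h.mul (-1) (A.neg_mem A.one_mem) f hf
  simpa using this

theorem sub' (h : Mx T A m) {f g : W → ZMod p} (hf : f ∈ m) (hg : g ∈ m) : f - g ∈ m := by
  rw [sub_eq_add_neg]
  exact h.add _ hf _ (h.neg hg)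

theorem sum (h : Mx T A m) {ι : Type*} (s : Finset ι) (f : ι → W → ZMod p)
    (hf : ∀ i ∈ s, f i ∈ m) : ∑ i ∈ s, f i ∈ m := by
  classical
  induction s using Finset.induction_on with
  | empty => simpa using h.zero
  | insert a s ha ih =>
    rw [sum_insert ha]
    exact h.add _ (hf a (mem_insert_self a s)) _ (ih fun i hi => hf i (mem_insert_of_mem hi))

theorem tau_iter (h : Mx T A m) {f : W → ZMod p} (hf : f ∈ m) (n : ℕ) : f ∘ T^[n] ∈ m := by
  induction n with
  | zero => simpa using hf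
  | succ n ih =>
    have := h.tau _ ih
    rwa [Function.comp_assoc, ← Function.iterate_succ] at this

theorem congr (h : Mx T A m) {f g : W → ZMod p} (hf : f ∈ m) (hfg : g - f ∈ m) : g ∈ m := by
  have := h.add _ hfg _ hf
  simpa using this

end Mx

variable {T : W → W} {A A' : Subring (W → ZMod p)} {m m' : Set (W → ZMod p)}

theorem comp_iter (hA : ∀ f ∈ A, f ∘ T ∈ A) {f : W → ZMod p} (hf : f ∈ A) (n : ℕ) :
    f ∘ T^[n] ∈ A := by
  induction n with
  | zero => simpa using hf
  | succ n ih =>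
    have := hA _ ih
    rwa [Function.comp_assoc, ← Function.iterate_succ] at this

/-- `1 - ∏ (1 - x_i)` for elements `x_i` of a set closed under addition and multiplication -/
theorem one_sub_prod_mem (I : Set (W → ZMod p)) (h0 : (0 : W → ZMod p) ∈ I)
    (hadd : ∀ f ∈ I, ∀ g ∈ I, f + g ∈ I) (hmul : ∀ a ∈ A, ∀ f ∈ I, a * f ∈ I)
    (x : ℕ → W → ZMod p) (hxA : ∀ i, x i ∈ A) (hx : ∀ i, x i ∈ I) (J : ℕ) :
    1 - ∏ i ∈ range J, (1 - x i) ∈ I := by
  induction J with
  | zero => simpa using h0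
  | succ J ih =>
    have h1 : 1 - ∏ i ∈ range (J + 1), (1 - x i)
        = (1 - ∏ i ∈ range J, (1 - x i)) + (∏ i ∈ range J, (1 - x i)) * x J := by
      rw [prod_range_succ]
      ring
    rw [h1]
    refine hadd _ ih _ (hmul _ ?_ _ (hx J))
    exact A.prod_mem fun i _ => A.sub_mem A.one_mem (hxA i)

/-- if a translate of `f` is in `m` then so is `f` -/
theorem tau_inv [Fact p.Prime] (hA : ∀ f ∈ A, f ∘ T ∈ A) (hm : Mx T A m) {f : W → ZMod p}
    (hf : f ∈ A) {n : ℕ} (hn : f ∘ T^[n] ∈ m) : f ∈ m := by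
  have hp : 2 ≤ p := (Fact.out : p.Prime).two_le
  by_contra hc
  obtain ⟨J, hJ⟩ := hm.syn f hf hc
  have h1 := hm.tau_iter hJ n
  have h2 : (∏ i ∈ range J, (1 - (f ∘ T^[i]) ^ (p - 1))) ∘ T^[n]
      = ∏ i ∈ range J, (1 - (f ∘ T^[n + i]) ^ (p - 1)) := by
    funext v
    simp only [Function.comp_apply, Finset.prod_apply, Pi.sub_apply, Pi.pow_apply, Pi.one_apply]
    refine prod_congr rfl fun i _ => ?_
    rw [add_comm n i, Function.iterate_add_apply]
  rw [h2] at h1
  have h3 : 1 - ∏ i ∈ range J, (1 - (f ∘ T^[n + i]) ^ (p - 1)) ∈ m := by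
    refine one_sub_prod_mem (A := A) m hm.zero hm.add hm.mul
      (fun i => (f ∘ T^[n + i]) ^ (p - 1)) (fun i => ?_) (fun i => ?_) J
    · exact A.pow_mem (comp_iter hA hf _) _
    · have h4 : f ∘ T^[n + i] ∈ m := by
        have := hm.tau_iter hn i
        rwa [Function.comp_assoc, ← Function.iterate_add] at this
      have h5 : (f ∘ T^[n + i]) ^ (p - 1) = (f ∘ T^[n + i]) ^ (p - 2) * (f ∘ T^[n + i]) := by
        rw [← pow_succ]
        congr 1
        omega
      show (f ∘ T^[n + i]) ^ (p - 1) ∈ m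
      rw [h5]
      exact hm.mul _ (A.pow_mem (comp_iter hA hf _) _) _ h4
  exact hm.one (hm.congr h1 h3)

/-- polynomials in `X` of degree `< n` with coefficients in `A` -/
def D (A : Subring (W → ZMod p)) (X : W → ZMod p) (n : ℕ) : Set (W → ZMod p) :=
  {f | ∃ c : ℕ → W → ZMod p, (∀ i, c i ∈ A) ∧ f = ∑ i ∈ range n, c i * X ^ i}

section D

variable {X h : W → ZMod p}

theorem D_zero' (n : ℕ) : (0 : W → ZMod p) ∈ D A X n :=
  ⟨fun _ => 0, fun _ => A.zero_mem, by simp⟩

theorem D_add {n : ℕ} {f g : W → ZMod p} (hf : f ∈ D A X n) (hg : g ∈ D A X n) :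
    f + g ∈ D A X n := by
  obtain ⟨c, hc, rfl⟩ := hf
  obtain ⟨d, hd, rfl⟩ := hg
  refine ⟨fun i => c i + d i, fun i => A.add_mem (hc i) (hd i), ?_⟩
  rw [← sum_add_distrib]
  exact sum_congr rfl fun i _ => by ring

theorem D_mul {n : ℕ} {a f : W → ZMod p} (ha : a ∈ A) (hf : f ∈ D A X n) :
    a * f ∈ D A X n := by
  obtain ⟨c, hc, rfl⟩ := hf
  refine ⟨fun i => a * c i, fun i => A.mul_mem ha (hc i), ?_⟩
  rw [mul_sum]
  exact sum_congr rfl fun i _ => by ring

theorem D_neg {n : ℕ} {f : W → ZMod p} (hf : f ∈ D A X n) : -f ∈ D A X n := by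
  have := D_mul (A := A) (a := -1) (A.neg_mem A.one_mem) hf
  simpa using this

theorem D_sub {n : ℕ} {f g : W → ZMod p} (hf : f ∈ D A X n) (hg : g ∈ D A X n) :
    f - g ∈ D A X n := by
  rw [sub_eq_add_neg]
  exact D_add hf (D_neg hg)

theorem D_succ {n : ℕ} {f : W → ZMod p} :
    f ∈ D A X (n + 1) ↔ ∃ a ∈ A, ∃ g ∈ D A X n, f = a * X ^ n + g := by
  constructor
  · rintro ⟨c, hc, rfl⟩
    refine ⟨c n, hc n, ∑ i ∈ range n, c i * X ^ i, ⟨c, hc, rfl⟩, ?_⟩
    rw [sum_range_succ, add_comm]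
  · rintro ⟨a, ha, g, ⟨c, hc, rfl⟩, rfl⟩
    refine ⟨fun i => if i < n then c i else a, fun i => ?_, ?_⟩
    · show (if i < n then c i else a) ∈ A
      split_ifs
      · exact hc i
      · exact ha
    · rw [sum_range_succ, add_comm]
      congr 1
      · refine sum_congr rfl fun i hi => ?_
        show c i * X ^ i = (if i < n then c i else a) * X ^ i
        rw [if_pos (mem_range.1 hi)]
      · show a * X ^ n = (if n < n then c n else a) * X ^ n
        rw [if_neg (lt_irrefl n)]

theorem D_zero_iff {f : W → ZMod p} : f ∈ D A X 0 ↔ f = 0 := by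
  constructor
  · rintro ⟨c, _, rfl⟩
    simp
  · rintro rfl
    exact D_zero' 0

theorem D_mono {n : ℕ} {f : W → ZMod p} (hf : f ∈ D A X n) : f ∈ D A X (n + 1) :=
  D_succ.2 ⟨0, A.zero_mem, f, hf, by simp⟩

theorem D_X {n : ℕ} {f : W → ZMod p} (hf : f ∈ D A X n) : X * f ∈ D A X (n + 1) := by
  obtain ⟨c, hc, rfl⟩ := hf
  refine ⟨fun i => if i = 0 then 0 else c (i - 1), fun i => ?_, ?_⟩
  · show (if i = 0 then 0 else c (i - 1)) ∈ A
    split_ifs
    · exact A.zero_mem
    · exact hc _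
  · rw [sum_range_succ', mul_sum]
    simp only [if_true, zero_mul, add_zero, Nat.add_sub_cancel, Nat.add_eq_zero_iff, one_ne_zero,
      and_false, if_false]
    exact sum_congr rfl fun i _ => by ring

theorem D_top {n : ℕ} {a : W → ZMod p} (ha : a ∈ A) : a * X ^ n ∈ D A X (n + 1) :=
  D_succ.2 ⟨a, ha, 0, D_zero' n, by simp⟩

theorem D_const {n : ℕ} (hn : 0 < n) {a : W → ZMod p} (ha : a ∈ A) : a ∈ D A X n := by
  obtain ⟨k, rfl⟩ := Nat.exists_eq_succ_of_ne_zero hn.ne'
  clear hn
  induction k with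
  | zero =>
    have := D_top (A := A) (X := X) (n := 0) ha
    simpa using this
  | succ k ih => exact D_mono ih

theorem pow_sub_mem (hh : h ∈ A) (n : ℕ) :
    (X - h) ^ (n + 1) - X ^ (n + 1) + ((n + 1 : ℕ) : W → ZMod p) * (h * X ^ n) ∈ D A X n := by
  induction n with
  | zero =>
    rw [D_zero_iff]
    simp
  | succ n ih =>
    have h1 := D_add (D_add (D_X ih) (D_neg (D_mono (D_mul hh ih))))
      (D_top (A := A) (X := X) (n := n) (A.mul_mem (A.mul_mem (natCast_mem A (n + 1)) hh) hh))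
    convert h1 using 1
    push_cast
    ring

theorem pow_sub_mem' (hh : h ∈ A) (n : ℕ) : (X - h) ^ n - X ^ n ∈ D A X n := by
  cases n with
  | zero => simpa using D_zero' (A := A) (X := X) 0
  | succ n =>
    have h1 := D_sub (D_mono (pow_sub_mem (A := A) (X := X) hh n))
      (D_top (A := A) (X := X) (n := n) (A.mul_mem (natCast_mem A (n + 1)) hh))
    convert h1 using 1
    push_cast
    ring

theorem D_tau (hA : ∀ f ∈ A, f ∘ T ∈ A) (hh : h ∈ A) (hXT : X ∘ T = X - h) {n : ℕ} :
    ∀ {f : W → ZMod p}, f ∈ D A X n → f ∘ T ∈ D A X n := by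
  induction n with
  | zero =>
    intro f hf
    rw [D_zero_iff] at hf ⊢
    rw [hf]
    rfl
  | succ n ih =>
    intro f hf
    obtain ⟨a, ha, g, hg, rfl⟩ := D_succ.1 hf
    have h1 : (a * X ^ n + g) ∘ T = (a ∘ T) * X ^ n + ((a ∘ T) * ((X - h) ^ n - X ^ n) + g ∘ T) := by
      have : (a * X ^ n + g) ∘ T = (a ∘ T) * (X ∘ T) ^ n + g ∘ T := rfl
      rw [this, hXT]
      ring
    rw [h1]
    exact D_succ.2 ⟨a ∘ T, hA a ha, _, D_add (D_mul (hA a ha) (pow_sub_mem' hh n)) (ih hg), rfl⟩

end D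

section indep

variable [Fact p.Prime] {X h : W → ZMod p}

theorem const_mem (c : ZMod p) : (fun _ => c : W → ZMod p) ∈ A := by
  have h1 : (fun _ => c : W → ZMod p) = ((c.val : ℕ) : W → ZMod p) := by
    funext v
    simp
  rw [h1]
  exact natCast_mem A _

theorem indep_aux (hAA : A ≤ A') (hA : ∀ f ∈ A, f ∘ T ∈ A) (hm : Mx T A m) (hm' : Mx T A' m')
    (hmm : m ⊆ m') (hX : X ∈ A') (hh : h ∈ A) (hXT : X ∘ T = X - h)
    (hnc : ¬ Cob T A m h) (n : ℕ) (hn : n ≤ p) :
    ∀ a : ℕ → W → ZMod p, (∀ i, a i ∈ A) → ∑ i ∈ range n, a i * X ^ i ∈ m' →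
      ∀ i < n, a i ∈ m := by
  have hp : 2 ≤ p := (Fact.out : p.Prime).two_le
  induction n with
  | zero =>
    intro a _ _ i hi
    omega
  | succ n ih =>
    intro a ha hs
    -- the ideal of leading coefficients
    let I : Set (W → ZMod p) := {b | b ∈ A ∧ ∃ g ∈ D A X n, b * X ^ n + g ∈ m'}
    have hI0 : (0 : W → ZMod p) ∈ I := ⟨A.zero_mem, 0, D_zero' n, by simpa using hm'.zero⟩
    have hIadd : ∀ f ∈ I, ∀ g ∈ I, f + g ∈ I := by
      rintro f ⟨hf, u, hu, hfu⟩ g ⟨hg, v, hv, hgv⟩
      refine ⟨A.add_mem hf hg, u + v, D_add hu hv, ?_⟩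
      have := hm'.add _ hfu _ hgv
      convert this using 1
      ring
    have hImul : ∀ c ∈ A, ∀ f ∈ I, c * f ∈ I := by
      rintro c hc f ⟨hf, u, hu, hfu⟩
      refine ⟨A.mul_mem hc hf, c * u, D_mul hc hu, ?_⟩
      have := hm'.mul c (hAA hc) _ hfu
      convert this using 1
      ring
    have hItau : ∀ f ∈ I, f ∘ T ∈ I := by
      rintro f ⟨hf, u, hu, hfu⟩
      refine ⟨hA f hf, (f ∘ T) * ((X - h) ^ n - X ^ n) + u ∘ T,
        D_add (D_mul (hA f hf) (pow_sub_mem' hh n)) (D_tau hA hh hXT hu), ?_⟩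
      have h1 := hm'.tau _ hfu
      have h2 : (f * X ^ n + u) ∘ T = (f ∘ T) * (X ∘ T) ^ n + u ∘ T := rfl
      rw [h2, hXT] at h1
      convert h1 using 1
      ring
    have hIiter : ∀ f ∈ I, ∀ k : ℕ, f ∘ T^[k] ∈ I := by
      intro f hf k
      induction k with
      | zero => simpa using hf
      | succ k ihk =>
        have := hItau _ ihk
        rwa [Function.comp_assoc, ← Function.iterate_succ] at this
    have han : a n ∈ m := by
      by_contra hc
      have haI : a n ∈ I := by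
        refine ⟨ha n, ∑ i ∈ range n, a i * X ^ i, ⟨a, ha, rfl⟩, ?_⟩
        rw [sum_range_succ, add_comm] at hs
        exact hs
      obtain ⟨J, hJ⟩ := hm.syn (a n) (ha n) hc
      have h1 : 1 - ∏ i ∈ range J, (1 - (a n ∘ T^[i]) ^ (p - 1)) ∈ I := by
        refine one_sub_prod_mem (A := A) I hI0 hIadd hImul
          (fun i => (a n ∘ T^[i]) ^ (p - 1)) (fun i => ?_) (fun i => ?_) J
        · exact A.pow_mem (comp_iter hA (ha n) _) _
        · have h5 : (a n ∘ T^[i]) ^ (p - 1) = (a n ∘ T^[i]) ^ (p - 2) * (a n ∘ T^[i]) := by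
            rw [← pow_succ]
            congr 1
            omega
          show (a n ∘ T^[i]) ^ (p - 1) ∈ I
          rw [h5]
          exact hImul _ (A.pow_mem (comp_iter hA (ha n) _) _) _ (hIiter _ haI i)
      have h2 : ∏ i ∈ range J, (1 - (a n ∘ T^[i]) ^ (p - 1)) ∈ I := by
        refine ⟨hm.sub _ hJ, 0, D_zero' n, ?_⟩
        have h3 := hm'.mul (X ^ n) (A'.pow_mem hX n) _ (hmm hJ)
        convert h3 using 1
        ring
      have h3 : (1 : W → ZMod p) ∈ I := by
        have := hIadd _ h1 _ h2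
        simpa using this
      obtain ⟨_, g, hg, hq⟩ := h3
      rcases Nat.eq_zero_or_pos n with hn0 | hn0
      · subst hn0
        rw [D_zero_iff] at hg
        subst hg
        apply hm'.one
        simpa using hq
      · obtain ⟨k, rfl⟩ := Nat.exists_eq_succ_of_ne_zero hn0.ne'
        obtain ⟨b, hb, g', hg', rfl⟩ := D_succ.1 hg
        have hq1 := hm'.sub' hq (hm'.tau _ hq)
        have hq2 : (1 * X ^ (k + 1) + (b * X ^ k + g')) ∘ T
            = (X ∘ T) ^ (k + 1) + ((b ∘ T) * (X ∘ T) ^ k + g' ∘ T) := by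
          funext v
          simp
        have hq3 : ∃ e ∈ D A X k, (1 * X ^ (k + 1) + (b * X ^ k + g'))
            - (1 * X ^ (k + 1) + (b * X ^ k + g')) ∘ T
            = (((k + 1 : ℕ) : W → ZMod p) * h + b - b ∘ T) * X ^ k + e := by
          refine ⟨-((X - h) ^ (k + 1) - X ^ (k + 1) + ((k + 1 : ℕ) : W → ZMod p) * (h * X ^ k))
            - (b ∘ T) * ((X - h) ^ k - X ^ k) + (g' - g' ∘ T), ?_, ?_⟩
          · exact D_add (D_sub (D_neg (pow_sub_mem hh k))
              (D_mul (hA b hb) (pow_sub_mem' hh k))) (D_sub hg' (D_tau hA hh hXT hg'))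
          · rw [hq2, hXT]
            ring
        obtain ⟨e, he, hq4⟩ := hq3
        rw [hq4] at hq1
        obtain ⟨c, hc1, hc2⟩ := he
        let a' : ℕ → W → ZMod p := fun i =>
          if i < k then c i else ((k + 1 : ℕ) : W → ZMod p) * h + b - b ∘ T
        have ha' : ∀ i, a' i ∈ A := by
          intro i
          show (if i < k then c i else ((k + 1 : ℕ) : W → ZMod p) * h + b - b ∘ T) ∈ A
          split_ifs
          · exact hc1 i
          · exact A.sub_mem (A.add_mem (A.mul_mem (natCast_mem A _) hh) hb) (hA b hb)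
        have hs' : ∑ i ∈ range (k + 1), a' i * X ^ i ∈ m' := by
          rw [sum_range_succ, add_comm]
          have h6 : ∑ i ∈ range k, a' i * X ^ i = e := by
            rw [hc2]
            refine sum_congr rfl fun i hi => ?_
            show (if i < k then c i else _) * X ^ i = _
            rw [if_pos (mem_range.1 hi)]
          have h7 : a' k = ((k + 1 : ℕ) : W → ZMod p) * h + b - b ∘ T := by
            show (if k < k then c k else _) = _
            rw [if_neg (lt_irrefl k)]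
          rw [h6, h7]
          exact hq1
        have h8 := ih (by omega) a' ha' hs' k (by omega)
        have h9 : a' k = ((k + 1 : ℕ) : W → ZMod p) * h + b - b ∘ T := by
          show (if k < k then c k else _) = _
          rw [if_neg (lt_irrefl k)]
        rw [h9] at h8
        apply hnc
        have hk : ((k + 1 : ℕ) : ZMod p) ≠ 0 := by
          rw [Ne, ZMod.natCast_eq_zero_iff]
          intro hd
          have := Nat.le_of_dvd (by omega) hd
          omega
        let C : W → ZMod p := fun _ => (((k + 1 : ℕ) : ZMod p))⁻¹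
        have hC : C ∈ A := const_mem _
        refine ⟨-(C * b), A.neg_mem (A.mul_mem hC hb), ?_⟩
        have h10 := hm.mul C hC _ h8
        convert h10 using 1
        funext v
        simp only [C, Pi.sub_apply, Pi.add_apply, Pi.mul_apply, Pi.neg_apply, Function.comp_apply,
          Pi.natCast_apply]
        field_simp
        ring
    intro i hi
    rcases Nat.lt_succ_iff_lt_or_eq.1 hi with hi | rfl
    · refine ih (by omega) a ha ?_ i hi
      rw [sum_range_succ] at hs
      have h1 : a n * X ^ n ∈ m' := by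
        have := hm'.mul (X ^ n) (A'.pow_mem hX n) _ (hmm han)
        rwa [mul_comm] at this
      have := hm'.sub' hs h1
      simpa using this
    · exact han

/-- `1, X, .., X ^ (p - 1)` are independent over `A` modulo `m'` -/
theorem indep (hAA : A ≤ A') (hA : ∀ f ∈ A, f ∘ T ∈ A) (hm : Mx T A m) (hm' : Mx T A' m')
    (hmm : m ⊆ m') (hX : X ∈ A') (hh : h ∈ A) (hXT : X ∘ T = X - h)
    (hnc : ¬ Cob T A m h) (a : ℕ → W → ZMod p) (ha : ∀ i, a i ∈ A)
    (hs : ∑ i ∈ range p, a i * X ^ i ∈ m') : ∀ i < p, a i ∈ m :=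
  indep_aux hAA hA hm hm' hmm hX hh hXT hnc p le_rfl a ha hs

/-! ### indicators -/

theorem ind_eq (s : ZMod p) : ind X s = 1 - (X - fun _ => s) ^ (p - 1) := by
  funext v
  simp only [ind, Pi.sub_apply, Pi.one_apply, Pi.pow_apply]
  split_ifs with hv
  · have : p - 1 ≠ 0 := by
      have hp : 2 ≤ p := (Fact.out : p.Prime).two_le
      omega
    rw [hv, sub_self, zero_pow this, sub_zero]
  · rw [ZMod.pow_card_sub_one_eq_one (sub_ne_zero.2 hv), sub_self]

theorem ind_mem (hX : X ∈ A) (s : ZMod p) : ind X s ∈ A := by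
  rw [ind_eq]
  exact A.sub_mem A.one_mem (A.pow_mem (A.sub_mem hX (const_mem s)) _)

theorem ind_sum : ∑ s : ZMod p, ind X s = (1 : W → ZMod p) := by
  funext v
  simp [ind, Finset.sum_apply]

theorem D_ind {a : W → ZMod p} (ha : a ∈ A) (s : ZMod p) :
    a * ind X s + a * X ^ (p - 1) ∈ D A X (p - 1) := by
  have hp : 2 ≤ p := (Fact.out : p.Prime).two_le
  have h1 := D_sub (D_const (A := A) (X := X) (n := p - 1) (by omega) ha)
    (D_mul (A := A) ha (pow_sub_mem' (A := A) (X := X) (const_mem s) (p - 1)))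
  convert h1 using 1
  rw [ind_eq]
  ring

theorem D_sum {n : ℕ} {ι : Type*} (s : Finset ι) (f : ι → W → ZMod p)
    (hf : ∀ i ∈ s, f i ∈ D A X n) : ∑ i ∈ s, f i ∈ D A X n := by
  classical
  induction s using Finset.induction_on with
  | empty => simpa using D_zero' n
  | insert a s ha ih =>
    rw [sum_insert ha]
    exact D_add (hf a (mem_insert_self a s)) (ih fun i hi => hf i (mem_insert_of_mem hi))

theorem D_inds {a : ZMod p → W → ZMod p} (ha : ∀ s, a s ∈ A) :
    ∑ s, a s * ind X s + (∑ s, a s) * X ^ (p - 1) ∈ D A X (p - 1) := by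
  rw [sum_mul, ← sum_add_distrib]
  exact D_sum _ _ fun s _ => D_ind (ha s) s

/-- a relation with top coefficient `a` -/
theorem indep_top (hAA : A ≤ A') (hA : ∀ f ∈ A, f ∘ T ∈ A) (hm : Mx T A m) (hm' : Mx T A' m')
    (hmm : m ⊆ m') (hX : X ∈ A') (hh : h ∈ A) (hXT : X ∘ T = X - h)
    (hnc : ¬ Cob T A m h) {f a : W → ZMod p} (ha : a ∈ A)
    (hf : f + a * X ^ (p - 1) ∈ D A X (p - 1)) (hfm : f ∈ m') : a ∈ m := by
  have hp : 2 ≤ p := (Fact.out : p.Prime).two_le
  obtain ⟨c, hc, hfc⟩ := hf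
  let c' : ℕ → W → ZMod p := fun i => if i < p - 1 then c i else -a
  have hc' : ∀ i, c' i ∈ A := by
    intro i
    show (if i < p - 1 then c i else -a) ∈ A
    split_ifs
    · exact hc i
    · exact A.neg_mem ha
  have hs : ∑ i ∈ range p, c' i * X ^ i ∈ m' := by
    have hp1 : p = (p - 1) + 1 := by omega
    have h1 : ∑ i ∈ range p, c' i * X ^ i = f := by
      have hr : range p = range (p - 1 + 1) := congrArg range hp1
      rw [hr, sum_range_succ]
      have h2 : ∑ i ∈ range (p - 1), c' i * X ^ i = f + a * X ^ (p - 1) := by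
        rw [hfc]
        refine sum_congr rfl fun i hi => ?_
        show (if i < p - 1 then c i else -a) * X ^ i = _
        rw [if_pos (mem_range.1 hi)]
      have h3 : c' (p - 1) = -a := by
        show (if p - 1 < p - 1 then c (p - 1) else -a) = _
        rw [if_neg (lt_irrefl _)]
      rw [h2, h3]
      ring
    rw [h1]
    exact hfm
  have h4 := indep hAA hA hm hm' hmm hX hh hXT hnc c' hc' hs (p - 1) (by omega)
  have h3 : c' (p - 1) = -a := by
    show (if p - 1 < p - 1 then c (p - 1) else -a) = _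
    rw [if_neg (lt_irrefl _)]
  rw [h3] at h4
  have := hm.neg h4
  simpa using this

/-- the functions `[X = s]` are independent over `A` modulo `m'` -/
theorem indep_ind (hAA : A ≤ A') (hA : ∀ f ∈ A, f ∘ T ∈ A) (hm : Mx T A m) (hm' : Mx T A' m')
    (hmm : m ⊆ m') (hX : X ∈ A') (hh : h ∈ A) (hXT : X ∘ T = X - h)
    (hnc : ¬ Cob T A m h) (a : ZMod p → W → ZMod p) (ha : ∀ s, a s ∈ A)
    (hs : ∑ s, a s * ind X s ∈ m') (s : ZMod p) : a s ∈ m := by
  refine indep_top hAA hA hm hm' hmm hX hh hXT hnc (ha s) (D_ind (ha s) s) ?_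
  have h1 := hm'.mul _ (ind_mem hX s) _ hs
  convert h1 using 1
  funext v
  simp only [Pi.mul_apply, Finset.sum_apply, ind]
  rw [Finset.sum_eq_single (X v)]
  · by_cases hv : X v = s
    · subst hv
      simp
    · simp [hv]
  · intro b _ hb
    rw [if_neg (Ne.symm hb), mul_zero]
  · intro hb
    exact absurd (mem_univ _) hb

theorem indep_one (hAA : A ≤ A') (hA : ∀ f ∈ A, f ∘ T ∈ A) (hm : Mx T A m) (hm' : Mx T A' m')
    (hmm : m ⊆ m') (hX : X ∈ A') (hh : h ∈ A) (hXT : X ∘ T = X - h)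
    (hnc : ¬ Cob T A m h) {a : W → ZMod p} (ha : a ∈ A) (s : ZMod p)
    (hs : a * ind X s ∈ m') : a ∈ m :=
  indep_top hAA hA hm hm' hmm hX hh hXT hnc ha (D_ind ha s) hs

/-- rotation sums: if `θ = ∑ θ_s [X = s]` is a coboundary modulo `m'` of a function
`∑ b_s [X = s]`, then `∑ θ_s` is a coboundary modulo `m` -/
theorem top (hAA : A ≤ A') (hA : ∀ f ∈ A, f ∘ T ∈ A) (hm : Mx T A m) (hm' : Mx T A' m')
    (hmm : m ⊆ m') (hX : X ∈ A') (hh : h ∈ A) (hXT : X ∘ T = X - h)
    (hnc : ¬ Cob T A m h) (θ : ZMod p → W → ZMod p) (hθ : ∀ s, θ s ∈ A)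
    (b : ZMod p → W → ZMod p) (hb : ∀ s, b s ∈ A) (ψ : W → ZMod p)
    (hψ : ψ - ∑ s, b s * ind X s ∈ m')
    (hc : ∑ s, θ s * ind X s - (ψ - ψ ∘ T) ∈ m') : Cob T A m (∑ s, θ s) := by
  have hp : 2 ≤ p := (Fact.out : p.Prime).two_le
  set β : W → ZMod p := ∑ s, b s * ind X s with hβ
  set Bs : W → ZMod p := ∑ s, b s with hBs
  have hBsA : Bs ∈ A := A.sum_mem fun s _ => hb s
  have hβD : β + Bs * X ^ (p - 1) ∈ D A X (p - 1) := D_inds hb
  have hβT : β ∘ T + (Bs ∘ T) * X ^ (p - 1) ∈ D A X (p - 1) := by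
    have h1 := D_tau hA hh hXT hβD
    have h2 : (β + Bs * X ^ (p - 1)) ∘ T = β ∘ T + (Bs ∘ T) * (X ∘ T) ^ (p - 1) := rfl
    rw [h2, hXT] at h1
    have h3 := D_sub h1 (D_mul (hA _ hBsA) (pow_sub_mem' (A := A) (X := X) hh (p - 1)))
    convert h3 using 1
    ring
  have h1 : ∑ s, θ s * ind X s - β + β ∘ T ∈ m' := by
    have h2 := hm'.sub' hψ (hm'.tau _ hψ)
    have h3 := hm'.add _ hc _ h2
    convert h3 using 1
    funext v
    simp only [Pi.add_apply, Pi.sub_apply, Function.comp_apply]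
    ring
  have h2 : (∑ s, θ s * ind X s - β + β ∘ T) + ((∑ s, θ s) - (Bs - Bs ∘ T)) * X ^ (p - 1)
      ∈ D A X (p - 1) := by
    have h3 := D_add (D_sub (D_inds (X := X) hθ) hβD) hβT
    convert h3 using 1
    ring
  have h4 := indep_top hAA hA hm hm' hmm hX hh hXT hnc
    (A.sub_mem (A.sum_mem fun s _ => hθ s) (A.sub_mem hBsA (hA _ hBsA))) h2 h1
  exact ⟨Bs, hBsA, h4⟩

/-- every element of `A'` is, modulo `m'`, of the form `∑ b_s [X = s]` -/
def Gen (A A' : Subring (W → ZMod p)) (m' : Set (W → ZMod p)) (X : W → ZMod p) : Prop :=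
  ∀ ψ ∈ A', ∃ b : ZMod p → W → ZMod p, (∀ s, b s ∈ A) ∧ ψ - ∑ s, b s * ind X s ∈ m'

theorem not_cob (hAA : A ≤ A') (hA : ∀ f ∈ A, f ∘ T ∈ A) (hm : Mx T A m) (hm' : Mx T A' m')
    (hmm : m ⊆ m') (hX : X ∈ A') (hh : h ∈ A) (hXT : X ∘ T = X - h)
    (hnc : ¬ Cob T A m h) (hgen : Gen A A' m' X) (θ : ZMod p → W → ZMod p) (hθ : ∀ s, θ s ∈ A)
    (hsum : ∑ s, θ s = h) : ¬ Cob T A' m' (∑ s, θ s * ind X s) := by
  rintro ⟨ψ, hψ, hc⟩
  obtain ⟨b, hb, hψb⟩ := hgen ψ hψ
  have := top hAA hA hm hm' hmm hX hh hXT hnc θ hθ b hb ψ hψb hc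
  rw [hsum] at this
  exact hnc this

/-- `w' = h [X = ρ]` is not a coboundary -/
theorem not_cob_w (hAA : A ≤ A') (hA : ∀ f ∈ A, f ∘ T ∈ A) (hm : Mx T A m) (hm' : Mx T A' m')
    (hmm : m ⊆ m') (hX : X ∈ A') (hh : h ∈ A) (hXT : X ∘ T = X - h)
    (hnc : ¬ Cob T A m h) (hgen : Gen A A' m' X) (ρ : ZMod p) :
    ¬ Cob T A' m' (h * ind X ρ) := by
  have h1 := not_cob hAA hA hm hm' hmm hX hh hXT hnc hgen (fun s => if s = ρ then h else 0)
    (fun s => by
      show (if s = ρ then h else 0) ∈ A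
      split_ifs
      · exact hh
      · exact A.zero_mem) (by simp)
  have h2 : ∑ s, (if s = ρ then h else 0) * ind X s = h * ind X ρ := by
    simp [ite_mul, zero_mul]
  rwa [h2] at h1

/-- `w' + u ([X - h = ρ] - [X = ρ])` is not a coboundary -/
theorem not_cob_phi (hAA : A ≤ A') (hA : ∀ f ∈ A, f ∘ T ∈ A) (hm : Mx T A m) (hm' : Mx T A' m')
    (hmm : m ⊆ m') (hX : X ∈ A') (hh : h ∈ A) (hXT : X ∘ T = X - h)
    (hnc : ¬ Cob T A m h) (hgen : Gen A A' m' X) (ρ : ZMod p) (u : W → ZMod p) (hu : u ∈ A) :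
    ¬ Cob T A' m' (h * ind X ρ + u * (ind (X - h) ρ - ind X ρ)) := by
  have hi : ∀ s : ZMod p, ind h (s - ρ) ∈ A := fun s => ind_mem hh _
  have h1 := not_cob hAA hA hm hm' hmm hX hh hXT hnc hgen
    (fun s => (if s = ρ then h else 0) + u * (ind h (s - ρ) - if s = ρ then 1 else 0))
    (fun s => by
      show (if s = ρ then h else 0) + u * (ind h (s - ρ) - if s = ρ then 1 else 0) ∈ A
      split_ifs
      · exact A.add_mem hh (A.mul_mem hu (A.sub_mem (hi s) A.one_mem))
      · exact A.add_mem A.zero_mem (A.mul_mem hu (A.sub_mem (hi s) A.zero_mem))) (by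
      funext v
      simp only [Finset.sum_apply, Pi.add_apply, Pi.mul_apply, Pi.sub_apply, ind]
      rw [sum_add_distrib, ← mul_sum, sum_sub_distrib]
      have e1 : ∑ s : ZMod p, (if s = ρ then h else (0 : W → ZMod p)) v = h v := by
        rw [Finset.sum_eq_single ρ]
        · simp
        · intro b _ hb
          rw [if_neg hb]
          rfl
        · intro hb
          exact absurd (mem_univ _) hb
      have e2 : ∑ s : ZMod p, (if h v = s - ρ then (1 : ZMod p) else 0) = 1 := by
        rw [Finset.sum_eq_single (h v + ρ)]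
        · simp
        · intro b _ hb
          rw [if_neg]
          intro hc
          exact hb (by rw [hc]; ring)
        · intro hb
          exact absurd (mem_univ _) hb
      have e3 : ∑ s : ZMod p, (if s = ρ then (1 : W → ZMod p) else 0) v = 1 := by
        rw [Finset.sum_eq_single ρ]
        · simp
        · intro b _ hb
          rw [if_neg hb]
          rfl
        · intro hb
          exact absurd (mem_univ _) hb
      rw [e1, e2, e3]
      ring)
  have h2 : ∑ s, ((if s = ρ then h else 0) + u * (ind h (s - ρ) - if s = ρ then 1 else 0))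
      * ind X s = h * ind X ρ + u * (ind (X - h) ρ - ind X ρ) := by
    funext v
    simp only [Finset.sum_apply, Pi.add_apply, Pi.mul_apply, Pi.sub_apply, ind]
    rw [Finset.sum_eq_single (X v)]
    · by_cases h3 : X v = ρ
      · by_cases h4 : h v = 0
        · simp [h3, h4]
        · simp [h3, h4]
      · have e : (h v = X v - ρ) ↔ (X v - h v = ρ) := by
          constructor
          · intro e; rw [e]; ring
          · intro e; rw [← e]; ring
        simp [h3, e]
    · intro b _ hb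
      rw [if_neg (Ne.symm hb), mul_zero]
    · intro hb
      exact absurd (mem_univ _) hb
  rwa [h2] at h1

/-- clock zones: `h ∈ {0, 1}`, not zero modulo `m` -/
theorem clock (hAA : A ≤ A') (hA' : ∀ f ∈ A', f ∘ T ∈ A') (hm : Mx T A m)
    (hm' : Mx T A' m') (hmm : m ⊆ m') (hX : X ∈ A') (hh : h ∈ A) (hXT : X ∘ T = X - h)
    (hhh : h * h - h ∈ m) (hhm : h ∉ m) (ρ : ZMod p) : h * ind X ρ ∉ m' := by
  have hp : 2 ≤ p := (Fact.out : p.Prime).two_le
  have key : ∀ ρ : ZMod p, h * ind X ρ ∈ m' → ind X (ρ - 1) ∈ m' := by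
    intro ρ h1
    -- `ind X (ρ-1) ∘ T ≡ (1 - h) ind X (ρ - 1)`
    have h2 : ind X (ρ - 1) ∘ T - (1 - h) * ind X (ρ - 1) ∈ m' := by
      -- the difference is `h [X = ρ]` plus multiples of `h * h - h`
      have h3 : ∃ c ∈ A', ind X (ρ - 1) ∘ T - (1 - h) * ind X (ρ - 1)
          = h * ind X ρ + c * (h * h - h) := by
        let q : W → ZMod p := ind X (ρ - 1) ∘ T - (1 - h) * ind X (ρ - 1) - h * ind X ρ
        have hqA : q ∈ A' := by
          refine A'.sub_mem (A'.sub_mem (hA' _ (ind_mem hX _)) (A'.mul_mem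
            (A'.sub_mem A'.one_mem (hAA hh)) (ind_mem hX _))) (A'.mul_mem (hAA hh) (ind_mem hX _))
        refine ⟨q * (h * h - h) ^ (p - 2), A'.mul_mem hqA (A'.pow_mem (A'.sub_mem
          (A'.mul_mem (hAA hh) (hAA hh)) (hAA hh)) _), ?_⟩
        have h4 : q * (h * h - h) ^ (p - 2) * (h * h - h) = q := by
          have h5 : q * (h * h - h) ^ (p - 2) * (h * h - h) = q * (h * h - h) ^ (p - 1) := by
            rw [mul_assoc, ← pow_succ]
            congr 2
            omega
          rw [h5]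
          funext v
          by_cases h6 : h v * h v - h v = 0
          · have h7 : q v = 0 := by
              have hXv : X (T v) = X v - h v := congrFun hXT v
              have h8 : h v = 0 ∨ h v = 1 := by
                have : h v * (h v - 1) = 0 := by rw [← h6]; ring
                rcases mul_eq_zero.1 this with h | h
                · exact Or.inl h
                · exact Or.inr (sub_eq_zero.1 h)
              rcases h8 with h8 | h8
              · simp [q, ind, hXv, h8]
              · have e : (X v - 1 = ρ - 1) ↔ (X v = ρ) := by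
                  constructor
                  · intro e
                    exact sub_left_injective e
                  · intro e; rw [e]
                simp [q, ind, hXv, h8, e]
            simp [h7]
          · simp only [Pi.mul_apply, Pi.pow_apply, Pi.sub_apply]
            rw [ZMod.pow_card_sub_one_eq_one h6, mul_one]
        rw [h4]
        simp only [q]
        ring
      obtain ⟨c, hc, h4⟩ := h3
      rw [h4]
      exact hm'.add _ h1 _ (hm'.mul c hc _ (hmm hhh))
    -- iterate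
    have h3 : ∀ n : ℕ, ind X (ρ - 1) ∘ T^[n]
        - (∏ i ∈ range n, (1 - h ∘ T^[i])) * ind X (ρ - 1) ∈ m' := by
      intro n
      induction n with
      | zero => simpa using hm'.zero
      | succ n ih =>
        have h5 := hm'.tau_iter h2 n
        have h6 := hm'.mul (1 - h ∘ T^[n])
          (A'.sub_mem A'.one_mem (comp_iter hA' (hAA hh) n)) _ ih
        have h7 := hm'.add _ h5 _ h6
        convert h7 using 1
        rw [prod_range_succ, Function.iterate_succ']
        funext v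
        simp only [Function.comp_apply, Pi.sub_apply, Pi.mul_apply, Pi.add_apply, Pi.one_apply]
        ring
    obtain ⟨J, hJ⟩ := hm.syn h hh hhm
    have h4 : (∏ i ∈ range J, (1 - h ∘ T^[i])) ∈ m' := by
      have h5 : ∏ i ∈ range J, (1 - h ∘ T^[i]) = (∏ i ∈ range J, (1 - h ∘ T^[i]))
          * ∏ i ∈ range J, (1 - (h ∘ T^[i]) ^ (p - 1))
          + (∏ i ∈ range J, (1 - h ∘ T^[i])) * (1 - ∏ i ∈ range J, (1 - (h ∘ T^[i]) ^ (p - 1))) := by
        ring
      have h6 : ∀ n : ℕ, (∏ i ∈ range n, (1 - h ∘ T^[i]))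
          * (1 - ∏ i ∈ range n, (1 - (h ∘ T^[i]) ^ (p - 1))) ∈ m' := by
        intro n
        induction n with
        | zero => simpa using hm'.zero
        | succ n ih =>
          have h7 : (1 - h ∘ T^[n]) * (h ∘ T^[n]) ∈ m' := by
            have h8 := hm'.neg (hm'.tau_iter (hmm hhh) n)
            convert h8 using 1
            funext v
            simp only [Function.comp_apply, Pi.sub_apply, Pi.mul_apply, Pi.neg_apply, Pi.one_apply]
            ring
          have h8 := hm'.mul (1 - h ∘ T^[n])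
            (A'.sub_mem A'.one_mem (comp_iter hA' (hAA hh) n)) _ ih
          have h9 := hm'.mul ((∏ i ∈ range n, (1 - h ∘ T^[i]))
            * (∏ i ∈ range n, (1 - (h ∘ T^[i]) ^ (p - 1))) * (h ∘ T^[n]) ^ (p - 2))
            (A'.mul_mem (A'.mul_mem (A'.prod_mem fun i _ =>
                A'.sub_mem A'.one_mem (comp_iter hA' (hAA hh) i))
              (A'.prod_mem fun i _ => A'.sub_mem A'.one_mem
                (A'.pow_mem (comp_iter hA' (hAA hh) i) _)))
              (A'.pow_mem (comp_iter hA' (hAA hh) n) _)) _ h7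
          have h10 := hm'.add _ h8 _ h9
          convert h10 using 1
          rw [prod_range_succ, prod_range_succ]
          have h11 : (h ∘ T^[n]) ^ (p - 1) = (h ∘ T^[n]) ^ (p - 2) * (h ∘ T^[n]) := by
            rw [← pow_succ]
            congr 1
            omega
          rw [h11]
          ring
      rw [h5]
      exact hm'.add _ (hm'.mul _ (A'.prod_mem fun i _ =>
        A'.sub_mem A'.one_mem (comp_iter hA' (hAA hh) i)) _ (hmm hJ)) _ (h6 J)
    have h5 : ind X (ρ - 1) ∘ T^[J] ∈ m' := by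
      refine hm'.congr ?_ (h3 J)
      have := hm'.mul _ (ind_mem hX (ρ - 1)) _ h4
      rwa [mul_comm] at this
    exact tau_inv hA' hm' (ind_mem hX _) h5
  intro h1
  have h2 : ∀ n : ℕ, ind X (ρ - 1 - n) ∈ m' := by
    intro n
    induction n with
    | zero => simpa using key ρ h1
    | succ n ih =>
      have h3 := key (ρ - 1 - n) (hm'.mul h (hAA hh) _ ih)
      have h4 : ρ - 1 - ((n + 1 : ℕ) : ZMod p) = ρ - 1 - n - 1 := by push_cast; ring
      rw [h4]
      exact h3
  apply hm'.one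
  rw [← ind_sum (X := X)]
  refine hm'.sum _ _ fun s _ => ?_
  have h3 := h2 (ρ - 1 - s).val
  have h4 : ρ - 1 - (((ρ - 1 - s).val : ℕ) : ZMod p) = s := by
    rw [ZMod.natCast_zmod_val]
    ring
  rwa [h4] at h3

/-- locality + coverage: everything in `A'` is `∑ b_s [X = s]` modulo `m'` -/
theorem gen_of_loc (hA' : ∀ f ∈ A', f ∘ T ∈ A') (hAA : A ≤ A') (hm' : Mx T A' m')
    (hX : X ∈ A') {w' : W → ZMod p} (hw : w' ∈ A') (hwm : w' ∉ m')
    (hloc : ∀ f ∈ A', ∃ n : ℕ, ∀ J : ℕ, ∃ Φ : ZMod p → W → ZMod p, (∀ a, Φ a ∈ A) ∧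
      ∀ v, n ≤ ((range J).filter fun i => w' (T^[i] v) ≠ 0).card → f v = Φ (X v) v) :
    Gen A A' m' X := by
  intro f hf
  have hp : 2 ≤ p := (Fact.out : p.Prime).two_le
  obtain ⟨J₀, hJ₀⟩ := hm'.syn w' hw hwm
  obtain ⟨n, hn⟩ := hloc f hf
  obtain ⟨Φ, hΦ, hΦ2⟩ := hn (n * J₀)
  refine ⟨Φ, hΦ, ?_⟩
  set P : W → ZMod p := ∏ i ∈ range J₀, (1 - (w' ∘ T^[i]) ^ (p - 1)) with hP
  have hPA : P ∈ A' := hm'.sub _ hJ₀
  have hP01 : ∀ v, P v = 0 ∨ P v = 1 := by
    intro v
    by_cases h1 : ∃ i ∈ range J₀, w' (T^[i] v) ≠ 0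
    · left
      obtain ⟨i, hi, hi2⟩ := h1
      rw [hP, Finset.prod_apply]
      refine prod_eq_zero hi ?_
      simp only [Pi.sub_apply, Pi.one_apply, Pi.pow_apply, Function.comp_apply]
      rw [ZMod.pow_card_sub_one_eq_one hi2, sub_self]
    · right
      push Not at h1
      rw [hP, Finset.prod_apply]
      refine prod_eq_one fun i hi => ?_
      simp only [Pi.sub_apply, Pi.one_apply, Pi.pow_apply, Function.comp_apply]
      rw [h1 i hi, zero_pow (by omega), sub_zero]
  have hP0 : ∀ v, P v = 0 → ∃ i < J₀, w' (T^[i] v) ≠ 0 := by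
    intro v hv
    by_contra h1
    push Not at h1
    have : P v = 1 := by
      rw [hP, Finset.prod_apply]
      refine prod_eq_one fun i hi => ?_
      simp only [Pi.sub_apply, Pi.one_apply, Pi.pow_apply, Function.comp_apply]
      rw [h1 i (mem_range.1 hi), zero_pow (by omega), sub_zero]
    rw [this] at hv
    exact one_ne_zero hv
  set g : W → ZMod p := f - ∑ s, Φ s * ind X s with hg
  have hgA : g ∈ A' := A'.sub_mem hf (A'.sum_mem fun s _ => A'.mul_mem (hAA (hΦ s)) (ind_mem hX s))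
  have hgv : ∀ v, n ≤ ((range (n * J₀)).filter fun i => w' (T^[i] v) ≠ 0).card → g v = 0 := by
    intro v hv
    have h1 := hΦ2 v hv
    simp only [hg, Pi.sub_apply, Finset.sum_apply, Pi.mul_apply, ind]
    rw [Finset.sum_eq_single (X v)]
    · rw [if_pos rfl, mul_one, h1, sub_self]
    · intro b _ hb
      rw [if_neg (Ne.symm hb), mul_zero]
    · intro hb
      exact absurd (mem_univ _) hb
  have hz : g * ∏ j ∈ range n, (1 - P ∘ T^[j * J₀]) = 0 := by
    funext v
    rw [Pi.mul_apply, Finset.prod_apply, Pi.zero_apply]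
    by_cases h1 : ∃ j ∈ range n, P (T^[j * J₀] v) ≠ 0
    · obtain ⟨j, hj, hj2⟩ := h1
      have h2 : P (T^[j * J₀] v) = 1 := (hP01 _).resolve_left hj2
      rw [prod_eq_zero hj, mul_zero]
      simp [h2]
    · push Not at h1
      rw [hgv v, zero_mul]
      have h2 : ∀ j, ∃ i, j < n → i < J₀ ∧ w' (T^[i + j * J₀] v) ≠ 0 := by
        intro j
        by_cases hj : j < n
        · obtain ⟨i, hi, hi2⟩ := hP0 _ (h1 j (mem_range.2 hj))
          refine ⟨i, fun _ => ⟨hi, ?_⟩⟩
          rw [Function.iterate_add_apply]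
          exact hi2
        · exact ⟨0, fun h => absurd h hj⟩
      choose i hi using h2
      have h3 : (range n).card ≤ ((range (n * J₀)).filter fun i => w' (T^[i] v) ≠ 0).card := by
        refine card_le_card_of_injOn (fun j => i j + j * J₀) ?_ ?_
        · intro j hj
          have hj' : j < n := by simpa using hj
          obtain ⟨h4, h5⟩ := hi j hj'
          simp only [coe_filter, mem_range, Set.mem_setOf_eq]
          refine ⟨?_, h5⟩
          calc i j + j * J₀ < J₀ + j * J₀ := by omega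
            _ = (j + 1) * J₀ := by ring
            _ ≤ n * J₀ := Nat.mul_le_mul_right _ hj'
        · intro j hj k hk hjk
          have hj' : j < n := by simpa using hj
          have hk' : k < n := by simpa using hk
          have h4 := (hi j hj').1
          have h5 := (hi k hk').1
          have hjk' : i j + j * J₀ = i k + k * J₀ := hjk
          have h6 : (i j + j * J₀) / J₀ = j := by
            rw [Nat.add_mul_div_right _ _ (by omega), Nat.div_eq_of_lt h4, zero_add]
          have h7 : (i k + k * J₀) / J₀ = k := by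
            rw [Nat.add_mul_div_right _ _ (by omega), Nat.div_eq_of_lt h5, zero_add]
          rw [← h6, ← h7, hjk']
      simpa using h3
  have h1 : 1 - ∏ j ∈ range n, (1 - P ∘ T^[j * J₀]) ∈ m' :=
    one_sub_prod_mem (A := A') m' hm'.zero hm'.add hm'.mul (fun j => P ∘ T^[j * J₀])
      (fun j => comp_iter hA' hPA _) (fun j => hm'.tau_iter hJ₀ _) n
  have h2 := hm'.mul g hgA _ h1
  have h3 : g * (1 - ∏ j ∈ range n, (1 - P ∘ T^[j * J₀])) = g := by
    rw [mul_sub, mul_one, hz, sub_zero]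
  rwa [h3] at h2

end indep

end Vale.Agent.P329.H458
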