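import Vale.Agent.P329.H458.Lem
import Mathlib.Order.Filter.Ultrafilter.Basic
import Mathlib.Order.Zorn

/-!
Existence of maximal `T`-stable ideals above a given one (lifting along `A ≤ A'`), and
separation of two different maximal ones.
-/

set_option autoImplicit false

namespace Vale.Agent.P329.H458

open Finset Filter

variable {p : ℕ} {W : Type*}
variable {T : W → W} {A A' : Subring (W → ZMod p)} {m m' : Set (W → ZMod p)}

/-- proper `T`-stable ideals -/
structure PI (T : W → W) (A : Subring (W → ZMod p)) (m : Set (W → ZMod p)) : Prop where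
  sub : ∀ f ∈ m, f ∈ A
  zero : (0 : W → ZMod p) ∈ m
  add : ∀ f ∈ m, ∀ g ∈ m, f + g ∈ m
  mul : ∀ a ∈ A, ∀ f ∈ m, a * f ∈ m
  tau : ∀ f ∈ m, f ∘ T ∈ m
  one : (1 : W → ZMod p) ∉ m

theorem Mx.pi (h : Mx T A m) : PI T A m := ⟨h.sub, h.zero, h.add, h.mul, h.tau, h.one⟩

/-- every proper `T`-stable ideal is contained in a maximal one -/
theorem PI.exists_mx [Fact p.Prime] (hA : ∀ f ∈ A, f ∘ T ∈ A) {m₀ : Set (W → ZMod p)}
    (h₀ : PI T A m₀) : ∃ m, m₀ ⊆ m ∧ Mx T A m := by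
  have hp : 2 ≤ p := (Fact.out : p.Prime).two_le
  obtain ⟨m, hm0, hmax⟩ := zorn_subset_nonempty {I | PI T A I} (by
    intro c hc hchain hne
    refine ⟨⋃₀ c, ?_, fun s hs => Set.subset_sUnion_of_mem hs⟩
    obtain ⟨I₀, hI₀⟩ := hne
    refine ⟨?_, ?_, ?_, ?_, ?_, ?_⟩
    · rintro f ⟨I, hI, hf⟩
      exact (hc hI).sub f hf
    · exact ⟨I₀, hI₀, (hc hI₀).zero⟩
    · rintro f ⟨I, hI, hf⟩ g ⟨K, hK, hg⟩
      rcases hchain.total hI hK with h | h
      · exact ⟨K, hK, (hc hK).add f (h hf) g hg⟩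
      · exact ⟨I, hI, (hc hI).add f hf g (h hg)⟩
    · rintro a ha f ⟨I, hI, hf⟩
      exact ⟨I, hI, (hc hI).mul a ha f hf⟩
    · rintro f ⟨I, hI, hf⟩
      exact ⟨I, hI, (hc hI).tau f hf⟩
    · rintro ⟨I, hI, hf⟩
      exact (hc hI).one hf) m₀ h₀
  have hm : PI T A m := hmax.prop
  refine ⟨m, hm0, hm.sub, hm.zero, hm.add, hm.mul, hm.tau, hm.one, ?_⟩
  intro f hf hfm
  have hPA : ∀ n : ℕ, ∏ i ∈ range n, (1 - (f ∘ T^[i]) ^ (p - 1)) ∈ A := fun n =>
    A.prod_mem fun i _ => A.sub_mem A.one_mem (A.pow_mem (comp_iter hA hf i) _)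
  by_contra hno
  push Not at hno
  let K : Set (W → ZMod p) :=
    {g | g ∈ A ∧ ∃ J : ℕ, g * ∏ i ∈ range J, (1 - (f ∘ T^[i]) ^ (p - 1)) ∈ m}
  have hmono : ∀ g, g ∈ A → ∀ J, g * ∏ i ∈ range J, (1 - (f ∘ T^[i]) ^ (p - 1)) ∈ m →
      ∀ k, g * ∏ i ∈ range (J + k), (1 - (f ∘ T^[i]) ^ (p - 1)) ∈ m := by
    intro g _ J hJ k
    induction k with
    | zero => exact hJ
    | succ k ih =>
      have h1 := hm.mul (1 - (f ∘ T^[J + k]) ^ (p - 1))
        (A.sub_mem A.one_mem (A.pow_mem (comp_iter hA hf _) _)) _ ih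
      rw [← add_assoc, prod_range_succ]
      convert h1 using 1
      ring
  have hK : PI T A K := by
    refine ⟨fun g hg => hg.1, ⟨A.zero_mem, 0, by simpa using hm.zero⟩, ?_, ?_, ?_, ?_⟩
    · rintro g ⟨hg, J, hJ⟩ k ⟨hk, L, hL⟩
      refine ⟨A.add_mem hg hk, J + L, ?_⟩
      have h1 := hmono g hg J hJ L
      have h2 := hmono k hk L hL J
      rw [add_comm L J] at h2
      have h3 := hm.add _ h1 _ h2
      convert h3 using 1
      ring
    · rintro a ha g ⟨hg, J, hJ⟩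
      refine ⟨A.mul_mem ha hg, J, ?_⟩
      have h1 := hm.mul a ha _ hJ
      convert h1 using 1
      ring
    · rintro g ⟨hg, J, hJ⟩
      refine ⟨hA g hg, J + 1, ?_⟩
      have h1 := hm.tau _ hJ
      have h2 := hm.mul (1 - f ^ (p - 1)) (A.sub_mem A.one_mem (A.pow_mem hf _)) _ h1
      convert h2 using 1
      rw [prod_range_succ']
      funext v
      simp only [Pi.mul_apply, Finset.prod_apply, Function.comp_apply, Pi.sub_apply, Pi.pow_apply,
        Pi.one_apply, Function.iterate_succ, Function.iterate_zero, id]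
      ring
    · rintro ⟨_, J, hJ⟩
      rw [one_mul] at hJ
      exact hno J hJ
  have hsub : m ⊆ K := fun g hg => ⟨hm.sub g hg, 0, by simpa using hg⟩
  have hfK : f ∈ K := by
    refine ⟨hf, 1, ?_⟩
    have h1 : f * ∏ i ∈ range 1, (1 - (f ∘ T^[i]) ^ (p - 1)) = 0 := by
      funext v
      simp only [range_one, prod_singleton, Function.iterate_zero, Function.comp_id,
        Pi.mul_apply, Pi.sub_apply, Pi.one_apply, Pi.pow_apply, Pi.zero_apply]
      by_cases hv : f v = 0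
      · rw [hv, zero_mul]
      · rw [ZMod.pow_card_sub_one_eq_one hv, sub_self, mul_zero]
    rw [h1]
    exact hm.zero
  have := hmax.le_of_ge hK hsub
  exact hfm (this hfK)

/-- a zone over `A`: the functions vanishing along the orbit of `V` are in `m` -/
def Adh (T : W → W) (A : Subring (W → ZMod p)) (V : Filter W) (m : Set (W → ZMod p)) : Prop :=
  ∀ f ∈ A, (∀ i : ℕ, ∀ᶠ v in V, f (T^[i] v) = 0) → f ∈ m

/-- LIFT -/
theorem lift [Fact p.Prime] (hAA : A ≤ A') (hA' : ∀ f ∈ A', f ∘ T ∈ A')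
    (hm : Mx T A m) (V : Ultrafilter W) (hV : Adh T A V m) :
    ∃ m', Mx T A' m' ∧ m ⊆ m' ∧ Adh T A' V m' := by
  have hp : 2 ≤ p := (Fact.out : p.Prime).two_le
  have hpow : ∀ x : ZMod p, x ^ (p - 1) = if x = 0 then 0 else 1 := by
    intro x
    split_ifs with hx
    · rw [hx, zero_pow (by omega)]
    · exact ZMod.pow_card_sub_one_eq_one hx
  let K : Set (W → ZMod p) :=
    {f | f ∈ A' ∧ ∃ e ∈ m, ∀ i : ℕ, ∀ᶠ v in V, e (T^[i] v) = 0 → f (T^[i] v) = 0}
  have hK : PI T A' K := by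
    refine ⟨fun f hf => hf.1, ⟨A'.zero_mem, 0, hm.zero, fun i => by simp⟩, ?_, ?_, ?_, ?_⟩
    · rintro f ⟨hf, e, he, hfe⟩ g ⟨hg, d, hd, hgd⟩
      refine ⟨A'.add_mem hf hg, 1 - (1 - e ^ (p - 1)) * (1 - d ^ (p - 1)), ?_, ?_⟩
      · have he' : e ^ (p - 1) ∈ m := by
          have h5 : e ^ (p - 1) = e ^ (p - 2) * e := by
            rw [← pow_succ]; congr 1; omega
          rw [h5]
          exact hm.mul _ (A.pow_mem (hm.sub _ he) _) _ he
        have hd' : d ^ (p - 1) ∈ m := by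
          have h5 : d ^ (p - 1) = d ^ (p - 2) * d := by
            rw [← pow_succ]; congr 1; omega
          rw [h5]
          exact hm.mul _ (A.pow_mem (hm.sub _ hd) _) _ hd
        have h6 := hm.add _ he' _ (hm.mul (1 - e ^ (p - 1))
          (A.sub_mem A.one_mem (hm.sub _ he')) _ hd')
        convert h6 using 1
        ring
      · intro i
        filter_upwards [hfe i, hgd i] with v h1 h2 h3
        simp only [Pi.sub_apply, Pi.mul_apply, Pi.one_apply, Pi.pow_apply, hpow] at h3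
        by_cases h4 : e (T^[i] v) = 0
        · by_cases h5 : d (T^[i] v) = 0
          · rw [Pi.add_apply, h1 h4, h2 h5, add_zero]
          · simp [h5] at h3
        · simp [h4] at h3
    · rintro a ha f ⟨hf, e, he, hfe⟩
      refine ⟨A'.mul_mem ha hf, e, he, fun i => ?_⟩
      filter_upwards [hfe i] with v h1 h2
      rw [Pi.mul_apply, h1 h2, mul_zero]
    · rintro f ⟨hf, e, he, hfe⟩
      refine ⟨hA' f hf, e ∘ T, hm.tau e he, fun i => ?_⟩
      filter_upwards [hfe (i + 1)] with v h1 h2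
      rw [Function.iterate_succ_apply'] at h1
      exact h1 h2
    · rintro ⟨_, e, he, h1⟩
      have h2 : (1 - e ^ (p - 1) : W → ZMod p) ∈ m := by
        refine hV _ (A.sub_mem A.one_mem (A.pow_mem (hm.sub _ he) _)) fun i => ?_
        filter_upwards [h1 i] with v h3
        by_cases h4 : e (T^[i] v) = 0
        · have := h3 h4
          rw [Pi.one_apply] at this
          exact absurd this one_ne_zero
        · simp only [Pi.sub_apply, Pi.one_apply, Pi.pow_apply]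
          rw [ZMod.pow_card_sub_one_eq_one h4, sub_self]
      have h3 : e ^ (p - 1) ∈ m := by
        have h5 : e ^ (p - 1) = e ^ (p - 2) * e := by
          rw [← pow_succ]; congr 1; omega
        rw [h5]
        exact hm.mul _ (A.pow_mem (hm.sub _ he) _) _ he
      apply hm.one
      have := hm.add _ h2 _ h3
      simpa using this
  obtain ⟨m', h1, h2⟩ := hK.exists_mx hA'
  refine ⟨m', h2, fun f hf => h1 ⟨hAA (hm.sub f hf), f, hf, fun i => by simp⟩, ?_⟩
  intro f hf hfV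
  exact h1 ⟨hf, 0, hm.zero, fun i => (hfV i).mono fun v hv _ => hv⟩

/-- every ultrafilter carries a maximal ideal -/
theorem exists_adh [Fact p.Prime] (hA : ∀ f ∈ A, f ∘ T ∈ A) (V : Ultrafilter W) :
    ∃ m, Mx T A m ∧ Adh T A V m := by
  let K : Set (W → ZMod p) := {f | f ∈ A ∧ ∀ i : ℕ, ∀ᶠ v in V, f (T^[i] v) = 0}
  have hK : PI T A K := by
    refine ⟨fun f hf => hf.1, ⟨A.zero_mem, fun i => by simp⟩, ?_, ?_, ?_, ?_⟩
    · rintro f ⟨hf, h1⟩ g ⟨hg, h2⟩
      refine ⟨A.add_mem hf hg, fun i => ?_⟩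
      filter_upwards [h1 i, h2 i] with v h3 h4
      rw [Pi.add_apply, h3, h4, add_zero]
    · rintro a ha f ⟨hf, h1⟩
      refine ⟨A.mul_mem ha hf, fun i => ?_⟩
      filter_upwards [h1 i] with v h3
      rw [Pi.mul_apply, h3, mul_zero]
    · rintro f ⟨hf, h1⟩
      refine ⟨hA f hf, fun i => ?_⟩
      filter_upwards [h1 (i + 1)] with v h3
      rw [Function.iterate_succ_apply'] at h3
      exact h3
    · rintro ⟨_, h1⟩
      obtain ⟨v, hv⟩ := (h1 0).exists
      exact one_ne_zero hv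
  obtain ⟨m', h1, h2⟩ := hK.exists_mx hA
  exact ⟨m', h2, fun f hf hfV => h1 ⟨hf, hfV⟩⟩

/-- a function not in `m` is nonzero along the orbit of `V`, arbitrarily far -/
theorem Adh.hit [Fact p.Prime] (hA : ∀ f ∈ A, f ∘ T ∈ A) (hm : Mx T A m) {V : Ultrafilter W}
    (hV : Adh T A V m) {f : W → ZMod p} (hf : f ∈ A) (hfm : f ∉ m) (n : ℕ) :
    ∃ i, n ≤ i ∧ ∀ᶠ v in V, f (T^[i] v) ≠ 0 := by
  by_contra hc
  push Not at hc
  apply hfm
  apply tau_inv hA hm hf (n := n)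
  refine hV _ (comp_iter hA hf n) fun i => ?_
  have h2 := hc (n + i) (by omega)
  filter_upwards [h2] with v hv
  rw [Function.comp_apply, ← Function.iterate_add_apply]
  exact hv

/-- maximal ideals are not comparable -/
theorem Mx.eq_of_subset [Fact p.Prime] (hA : ∀ f ∈ A, f ∘ T ∈ A) {m₁ m₂ : Set (W → ZMod p)}
    (h1 : Mx T A m₁) (h2 : Mx T A m₂) (h : m₁ ⊆ m₂) : m₁ = m₂ := by
  have hp : 2 ≤ p := (Fact.out : p.Prime).two_le
  refine Set.Subset.antisymm h fun f hf => ?_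
  by_contra hc
  obtain ⟨J, hJ⟩ := h1.syn f (h2.sub f hf) hc
  have h3 : 1 - ∏ i ∈ range J, (1 - (f ∘ T^[i]) ^ (p - 1)) ∈ m₂ := by
    refine one_sub_prod_mem (A := A) m₂ h2.zero h2.add h2.mul
      (fun i => (f ∘ T^[i]) ^ (p - 1)) (fun i => ?_) (fun i => ?_) J
    · exact A.pow_mem (comp_iter hA (h2.sub f hf) _) _
    · have h5 : (f ∘ T^[i]) ^ (p - 1) = (f ∘ T^[i]) ^ (p - 2) * (f ∘ T^[i]) := by
        rw [← pow_succ]
        congr 1
        omega
      show (f ∘ T^[i]) ^ (p - 1) ∈ m₂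
      rw [h5]
      exact h2.mul _ (A.pow_mem (comp_iter hA (h2.sub f hf) _) _) _ (h2.tau_iter hf i)
  apply h2.one
  have := h2.add _ h3 _ (h hJ)
  simpa using this

/-- separation of two different maximal ideals -/
theorem Mx.separate [Fact p.Prime] (hA : ∀ f ∈ A, f ∘ T ∈ A) {m₁ m₂ : Set (W → ZMod p)}
    (h1 : Mx T A m₁) (h2 : Mx T A m₂) (h : m₁ ≠ m₂) : ∃ e ∈ m₁, 1 - e ∈ m₂ := by
  have hp : 2 ≤ p := (Fact.out : p.Prime).two_le
  have h3 : ¬ m₁ ⊆ m₂ := fun hc => h (Mx.eq_of_subset hA h1 h2 hc)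
  rw [Set.not_subset] at h3
  obtain ⟨f, hf, hf2⟩ := h3
  obtain ⟨J, hJ⟩ := h2.syn f (h1.sub f hf) hf2
  refine ⟨1 - ∏ i ∈ range J, (1 - (f ∘ T^[i]) ^ (p - 1)), ?_, ?_⟩
  · refine one_sub_prod_mem (A := A) m₁ h1.zero h1.add h1.mul
      (fun i => (f ∘ T^[i]) ^ (p - 1)) (fun i => ?_) (fun i => ?_) J
    · exact A.pow_mem (comp_iter hA (h1.sub f hf) _) _
    · have h5 : (f ∘ T^[i]) ^ (p - 1) = (f ∘ T^[i]) ^ (p - 2) * (f ∘ T^[i]) := by
        rw [← pow_succ]
        congr 1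
        omega
      show (f ∘ T^[i]) ^ (p - 1) ∈ m₁
      rw [h5]
      exact h1.mul _ (A.pow_mem (comp_iter hA (h1.sub f hf) _) _) _ (h1.tau_iter hf i)
  · simpa using hJ

/-- separation from finitely many -/
theorem Mx.separate_list [Fact p.Prime] (hA : ∀ f ∈ A, f ∘ T ∈ A) {m₂ : Set (W → ZMod p)}
    (h2 : Mx T A m₂) (l : List (Set (W → ZMod p))) (hl : ∀ m₁ ∈ l, Mx T A m₁) :
    ∃ e ∈ A, 1 - e ∈ m₂ ∧ ∀ m₁ ∈ l, m₁ ≠ m₂ → e ∈ m₁ := by
  classical
  induction l with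
  | nil => exact ⟨1, A.one_mem, by simpa using h2.zero, by simp⟩
  | cons m₁ l ih =>
    obtain ⟨e, he, he2, he3⟩ := ih fun m₀ h0 => hl m₀ (List.mem_cons_of_mem _ h0)
    by_cases hc : m₁ = m₂
    · refine ⟨e, he, he2, fun m₀ h0 hne => ?_⟩
      rcases List.mem_cons.1 h0 with rfl | h0
      · exact absurd hc hne
      · exact he3 m₀ h0 hne
    · have h1 := hl m₁ List.mem_cons_self
      obtain ⟨d, hd, hd2⟩ := Mx.separate hA h1 h2 hc
      refine ⟨e * d, A.mul_mem he (h1.sub d hd), ?_, ?_⟩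
      · have h3 := h2.add _ he2 _ (h2.mul e he _ hd2)
        convert h3 using 1
        ring
      · intro m₀ h0 hne
        rcases List.mem_cons.1 h0 with rfl | h0
        · exact h1.mul e he d hd
        · have h3 := (hl m₀ (List.mem_cons_of_mem _ h0)).mul d (h1.sub d hd) _ (he3 m₀ h0 hne)
          rwa [mul_comm] at h3

end Vale.Agent.P329.H458
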